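import Vale.Agent.P032.H437.Ev2.Base

namespace Vale.Agent.P032.H437.Ev2
open Vale.Agent.P032.H859.Rup Vale.Agent.P032.H437

theorem r5_3 : run E L 33644 d3 3 32 = true := by decide +kernel

end Vale.Agent.P032.H437.Ev2
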